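import Vale.Agent.P088.R2.H551.V.Spec
import Vale.Agent.P088.H129.URed

/-!
# P088, rows of `R2/H551/V/Spec`: tools

`fn A = √(nq A)` is the Hilbert-Schmidt norm; Cauchy-Schwarz for integrals.
-/

open MeasureTheory Set
open scoped ContDiff Matrix

noncomputable section

namespace Vale.Agent.P088.R2.H644

open Vale.Agent.P088.LR Vale.Agent.P088.LR.U Vale.Agent.P088.LR.H158
open Vale.Agent.P088.PJ

variable {n N : ℕ}

/-- The Hilbert-Schmidt norm. -/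
def fn (A : Matrix (Fin N) (Fin N) ℂ) : ℝ := √(nq A)

theorem nq_nonneg (A : Matrix (Fin N) (Fin N) ℂ) : 0 ≤ nq A :=
  Finset.sum_nonneg fun _ _ => Finset.sum_nonneg fun _ _ => sq_nonneg _

theorem fn_nonneg (A : Matrix (Fin N) (Fin N) ℂ) : 0 ≤ fn A := Real.sqrt_nonneg _

theorem fn_sq (A : Matrix (Fin N) (Fin N) ℂ) : fn A ^ 2 = nq A := Real.sq_sqrt (nq_nonneg A)

section frob

attribute [local instance] Matrix.frobeniusNormedAddCommGroup Matrix.frobeniusNormedSpace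

theorem fn_eq (A : Matrix (Fin N) (Fin N) ℂ) : fn A = ‖A‖ := by
  rw [Matrix.frobenius_norm_def, fn, nq, Real.sqrt_eq_rpow]
  simp only [Real.rpow_two]

theorem fn_add_le (A B : Matrix (Fin N) (Fin N) ℂ) : fn (A + B) ≤ fn A + fn B := by
  rw [fn_eq, fn_eq, fn_eq]
  exact norm_add_le _ _

theorem fn_neg (A : Matrix (Fin N) (Fin N) ℂ) : fn (-A) = fn A := by
  rw [fn_eq, fn_eq]
  exact norm_neg _

theorem fn_sub_le (A B : Matrix (Fin N) (Fin N) ℂ) : fn (A - B) ≤ fn A + fn B := by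
  rw [fn_eq, fn_eq, fn_eq]
  exact norm_sub_le _ _

theorem fn_zero : fn (0 : Matrix (Fin N) (Fin N) ℂ) = 0 := by
  rw [fn_eq]
  exact norm_zero

theorem fn_smul (c : ℂ) (A : Matrix (Fin N) (Fin N) ℂ) : fn (c • A) = ‖c‖ * fn A := by
  rw [fn_eq, fn_eq]
  exact norm_smul _ _

theorem fn_sum_le {ι : Type*} (s : Finset ι) (A : ι → Matrix (Fin N) (Fin N) ℂ) :
    fn (∑ i ∈ s, A i) ≤ ∑ i ∈ s, fn (A i) := by
  simp only [fn_eq]
  exact norm_sum_le _ _

theorem fn_mul_le (A B : Matrix (Fin N) (Fin N) ℂ) : fn (A * B) ≤ fn A * fn B := by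
  rw [fn_eq, fn_eq, fn_eq]
  exact Matrix.frobenius_norm_mul A B

end frob

theorem entry_le (A : Matrix (Fin N) (Fin N) ℂ) (a b : Fin N) : ‖A a b‖ ≤ fn A := by
  unfold fn nq
  refine Real.le_sqrt_of_sq_le ?_
  have h1 : ‖A a b‖ ^ 2 ≤ ∑ b, ‖A a b‖ ^ 2 :=
    Finset.single_le_sum (f := fun b => ‖A a b‖ ^ 2) (fun _ _ => sq_nonneg _) (Finset.mem_univ b)
  have h2 : ∑ b, ‖A a b‖ ^ 2 ≤ ∑ a, ∑ b, ‖A a b‖ ^ 2 :=
    Finset.single_le_sum (f := fun a => ∑ b, ‖A a b‖ ^ 2)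
      (fun _ _ => Finset.sum_nonneg fun _ _ => sq_nonneg _) (Finset.mem_univ a)
  exact h1.trans h2

theorem fn_le_of_entries {c : ℝ} (hc : 0 ≤ c) {A : Matrix (Fin N) (Fin N) ℂ}
    (h : ∀ a b, ‖A a b‖ ≤ c) : fn A ≤ N * c := by
  unfold fn
  refine Real.sqrt_le_iff.2 ⟨by positivity, ?_⟩
  unfold nq
  calc ∑ a, ∑ b, ‖A a b‖ ^ 2 ≤ ∑ _a : Fin N, ∑ _b : Fin N, c ^ 2 :=
        Finset.sum_le_sum fun a _ => Finset.sum_le_sum fun b _ =>
          pow_le_pow_left₀ (norm_nonneg _) (h a b) 2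
    _ = (N * c) ^ 2 := by
        simp only [Finset.sum_const, Finset.card_univ, Fintype.card_fin, nsmul_eq_mul]
        ring

theorem trace_le (A : Matrix (Fin N) (Fin N) ℂ) : ‖A.trace‖ ≤ N * fn A := by
  unfold Matrix.trace
  calc ‖∑ i, A.diag i‖ ≤ ∑ i, ‖A.diag i‖ := norm_sum_le _ _
    _ ≤ ∑ _i : Fin N, fn A := Finset.sum_le_sum fun i _ => entry_le A i i
    _ = N * fn A := by simp

theorem trace_mul_le (A B : Matrix (Fin N) (Fin N) ℂ) :
    ‖(A * B).trace‖ ≤ N * (fn A * fn B) :=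
  (trace_le _).trans (mul_le_mul_of_nonneg_left (fn_mul_le A B) (Nat.cast_nonneg N))

/-! ## Cauchy-Schwarz -/

theorem amgm_inv {X P Q t : ℝ} (hP : 0 ≤ P) (hQ : 0 ≤ Q) (h : X ^ 2 ≤ P * Q) (ht : 0 < t) :
    2 * X ≤ t * P + Q / t := by
  have h1 : 0 ≤ t * P + Q / t := by positivity
  have h2 : (2 * X) ^ 2 ≤ (t * P + Q / t) ^ 2 := by
    have h3 : (t * P + Q / t) ^ 2 = (t * P - Q / t) ^ 2 + 4 * (P * Q) := by
      field_simp
      ring
    rw [h3]
    nlinarith [sq_nonneg (t * P - Q / t)]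
  exact (le_abs_self _).trans ((sq_le_sq.1 h2).trans (abs_of_nonneg h1).le)

theorem amgm_le {X P Q : ℝ} (hX : 0 ≤ X) (hP : 0 ≤ P) (hQ : 0 ≤ Q)
    (h : ∀ t : ℝ, 0 < t → 2 * X ≤ t * P + Q / t) : X ^ 2 ≤ P * Q := by
  have h' : ∀ t : ℝ, 0 ≤ P * (t * t) + (-(2 * X)) * t + Q := by
    intro t
    rcases le_or_gt t 0 with ht | ht
    · have : 0 ≤ P * (t * t) := mul_nonneg hP (mul_self_nonneg t)
      nlinarith
    · have h1 := h t ht
      have h2 : t * (2 * X) ≤ t * (t * P + Q / t) := mul_le_mul_of_nonneg_left h1 ht.le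
      have h3 : t * (t * P + Q / t) = P * (t * t) + Q := by
        field_simp
      nlinarith
  have h1 := discrim_le_zero h'
  unfold discrim at h1
  nlinarith

/-- Cauchy-Schwarz for integrals. -/
theorem int_cs {α : Type*} [MeasurableSpace α] {μ : Measure α} {F : α → ℂ} {p q : α → ℝ}
    (hp : Integrable p μ) (hq : Integrable q μ) (hp0 : ∀ x, 0 ≤ p x)
    (hq0 : ∀ x, 0 ≤ q x) (h : ∀ x, ‖F x‖ ^ 2 ≤ p x * q x) :
    ‖∫ x, F x ∂μ‖ ^ 2 ≤ (∫ x, p x ∂μ) * (∫ x, q x ∂μ) := by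
  by_cases hF : Integrable F μ
  · refine amgm_le (norm_nonneg _) (integral_nonneg hp0) (integral_nonneg hq0) fun t ht => ?_
    have h1 : ∀ x, 2 * ‖F x‖ ≤ t * p x + q x / t := fun x => amgm_inv (hp0 x) (hq0 x) (h x) ht
    have h2 : (∫ x, 2 * ‖F x‖ ∂μ) ≤ ∫ x, (t * p x + q x / t) ∂μ :=
      integral_mono (hF.norm.const_mul 2) ((hp.const_mul t).add (hq.div_const t)) h1
    rw [integral_add (hp.const_mul t) (hq.div_const t), integral_const_mul, integral_const_mul,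
      integral_div] at h2
    have h3 := norm_integral_le_integral_norm (μ := μ) F
    linarith
  · rw [integral_undef hF]
    simp only [norm_zero, ne_eq, OfNat.ofNat_ne_zero, not_false_eq_true, zero_pow]
    exact mul_nonneg (integral_nonneg hp0) (integral_nonneg hq0)

end Vale.Agent.P088.R2.H644
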