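import Vale.Agent.P088.R2.H644.Fn

/-!
# P088: the gauge identity of the reduced data, elementary bounds, integration by parts
-/

open MeasureTheory Set
open scoped ContDiff Matrix

noncomputable section

namespace Vale.Agent.P088.R2.H644

open Vale.Agent.P088.LR Vale.Agent.P088.LR.U Vale.Agent.P088.LR.H158
open Vale.Agent.P088.PJ Vale.Agent.P088.LR.U.H129

variable {n N k : ℕ} {δ : ℝ} {Ω : Set (V n)} {s₁ s₂ : MF n} {P₁ P₂ : MC n N}
  {G₁ G₂ Y D : Fin n → MC n N}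

/-! ## The ball -/

theorem isCompact_bl0 (n : ℕ) : IsCompact (bl0 n) := by
  refine Metric.isCompact_of_isClosed_isBounded ?_ ?_
  · unfold bl0 HY.sq
    exact isClosed_le (by fun_prop) continuous_const
  · refine (Metric.isBounded_closedBall (x := (0 : V n)) (r := 1)).subset fun x hx => ?_
    rw [mem_closedBall_zero_iff, pi_norm_le_iff_of_nonneg zero_le_one]
    intro i
    have h1 : x i ^ 2 ≤ HY.sq x :=
      Finset.single_le_sum (f := fun j => x j ^ 2) (fun _ _ => sq_nonneg _) (Finset.mem_univ i)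
    have h2 : HY.sq x ≤ 1 / 4 := hx
    rw [Real.norm_eq_abs]
    exact abs_le_of_sq_le_sq (by nlinarith) zero_le_one

theorem bounded_bl0 (n : ℕ) : Bornology.IsBounded (bl0 n) := (isCompact_bl0 n).isBounded

theorem bl0_sub_Bs (n : ℕ) : bl0 n ⊆ HY.Bs n 2 := fun x hx => by
  have h2 : HY.sq x ≤ 1 / 4 := hx
  show HY.sq x < 2 ^ 2
  linarith

theorem integrable_of {F : Type*} [NormedAddCommGroup F] {f : V n → F} (hf : Continuous f)
    (h0 : ∀ x ∉ bl0 n, f x = 0) : Integrable f :=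
  hf.integrable_of_hasCompactSupport (HasCompactSupport.intro (isCompact_bl0 n) h0)

theorem integrableOn_of {F : Type*} [NormedAddCommGroup F] {f : V n → F} (hf : Continuous f) :
    IntegrableOn f (bl0 n) := hf.continuousOn.integrableOn_compact (isCompact_bl0 n)

/-! ## Smoothness -/

theorem cd_trace {A : MC n N} (hA : SmC A) : ContDiff ℝ ∞ fun x => (A x).trace := by
  unfold Matrix.trace
  exact ContDiff.sum fun i _ => hA i i

theorem cont_nq {A : MC n N} (hA : SmC A) : Continuous fun x => nq (A x) := by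
  unfold nq
  exact continuous_finsetSum _ fun a _ => continuous_finsetSum _ fun b _ =>
    (hA a b).continuous.norm.pow 2

theorem smC_TP {s : MF n} {P : MC n N} (hs : SmM s) (hP : SmC P) (i j : Fin n) :
    SmC (TP s P i j) := smC_smul (hs i j) hP

theorem smC_kp {s : MF n} {G : Fin n → MC n N} (hs : SmM s) (hG : ∀ i, SmC (G i)) (i : Fin n) :
    SmC (kp s G i) := smC_sum fun j _ => smC_smul (hs i j) (hG j)

theorem smC_fsum {ι : Type*} {u : Finset ι} {P : ι → MC n N} (hP : ∀ j, SmC (P j)) :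
    SmC fun x => ∑ j ∈ u, P j x := smC_sum fun j _ => hP j

theorem smC_zero : SmC (fun _ : V n => (0 : Matrix (Fin N) (Fin N) ℂ)) := fun _ _ =>
  contDiff_const

theorem smC_Z (h : RP k δ Ω s₁ s₂ P₁ P₂ G₁ G₂ Y D) (i j : Fin n) : SmC (Zt s₁ s₂ P₁ P₂ i j) :=
  smC_sub (smC_TP h.d₂.ss h.d₂.sP i j) (smC_TP h.d₁.ss h.d₁.sP i j)

theorem smC_Q (h : RP k δ Ω s₁ s₂ P₁ P₂ G₁ G₂ Y D) (i : Fin n) : SmC (Qt s₁ s₂ G₁ G₂ i) :=
  smC_sub (smC_kp h.d₂.ss h.d₂.sG i) (smC_kp h.d₁.ss h.d₁.sG i)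

theorem Z_off (h : RP k δ Ω s₁ s₂ P₁ P₂ G₁ G₂ Y D) (i j : Fin n) {x : V n} (hx : x ∉ Ω) :
    Zt s₁ s₂ P₁ P₂ i j x = 0 := by
  unfold Zt TP
  rw [h.os x hx, h.oP x hx, sub_self]

theorem Q_off (h : RP k δ Ω s₁ s₂ P₁ P₂ G₁ G₂ Y D) (i : Fin n) {x : V n} (hx : x ∉ Ω) :
    Qt s₁ s₂ G₁ G₂ i x = 0 := by
  unfold Qt kp
  simp only [h.os x hx, h.oG _ x hx, sub_self]

theorem pdm_zero_off (hi : interior (closure Ω) = Ω) {A : MC n N} (hA : SmC A)
    (h0 : ∀ x ∉ Ω, A x = 0) (i : Fin n) {x : V n} (hx : x ∉ Ω) : pdm i A x = 0 := by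
  rw [pdm_off hi hA smC_zero h0 i hx, pdm_const]

/-! ## The gauge identity -/

/-- The flux `∑_j Z_ij ∂_j Y_a + ∑_j T₂_ij ∂_j D_a`. -/
def PhG (s₁ s₂ : MF n) (P₁ P₂ : MC n N) (Y D : Fin n → MC n N) (a i : Fin n) : MC n N := fun y =>
  (∑ j, Zt s₁ s₂ P₁ P₂ i j y * pdm j (Y a) y) + ∑ j, TP s₂ P₂ i j y * pdm j (D a) y

theorem smC_PhG (h : RP k δ Ω s₁ s₂ P₁ P₂ G₁ G₂ Y D) (a i : Fin n) :
    SmC (PhG s₁ s₂ P₁ P₂ Y D a i) :=
  smC_add (smC_fsum fun j => SmC_mul (smC_Z h i j) (smC_pdm (h.sY a) j))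
    (smC_fsum fun j => SmC_mul (smC_TP h.d₂.ss h.d₂.sP i j) (smC_pdm (h.sD a) j))

theorem PhG_off (h : RP k δ Ω s₁ s₂ P₁ P₂ G₁ G₂ Y D) (a i : Fin n) {x : V n} (hx : x ∉ Ω) :
    PhG s₁ s₂ P₁ P₂ Y D a i x = 0 := by
  unfold PhG
  simp only [Z_off h _ _ hx, pdm_zero_off h.reg (h.sD a) (h.oD a) _ hx, zero_mul, mul_zero,
    Finset.sum_const_zero, add_zero]

/-- **The gauge identity**: `∑_i q_i ∂_i Y_a = - (∑_i ∂_i Φ_ai + ∑_i κ₂_i ∂_i D_a)`. -/
theorem gauge (h : RP k δ Ω s₁ s₂ P₁ P₂ G₁ G₂ Y D) (a : Fin n) (x : V n) :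
    ∑ i, Qt s₁ s₂ G₁ G₂ i x * pdm i (Y a) x =
      -(∑ i, pdm i (PhG s₁ s₂ P₁ P₂ Y D a i) x + ∑ i, kp s₂ G₂ i x * pdm i (D a) x) := by
  by_cases hx : x ∈ Ω
  · have e1 := h.hY a x (bl0_sub_Bs n (h.sub hx))
    have e2 := h.gi a x hx
    unfold MoC at e1 e2
    have e3 : ∀ i, pdm i (fun y => ∑ j, TP s₂ P₂ i j y * pdm j (fun x => Y a x + D a x) y) x =
        pdm i (fun y => ∑ j, TP s₁ P₁ i j y * pdm j (Y a) y) x
          + pdm i (PhG s₁ s₂ P₁ P₂ Y D a i) x := by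
      intro i
      rw [← pdm_add (smC_fsum fun j => SmC_mul (smC_TP h.d₁.ss h.d₁.sP i j)
        (smC_pdm (h.sY a) j)) (smC_PhG h a i)]
      congr 1
      funext y
      unfold PhG Zt
      simp only [pdm_add (h.sY a) (h.sD a), mul_add, sub_mul, Finset.sum_add_distrib,
        Finset.sum_sub_distrib]
      abel
    rw [Finset.sum_congr rfl fun i _ => e3 i] at e2
    simp only [pdm_add (h.sY a) (h.sD a), mul_add, Finset.sum_add_distrib] at e2
    unfold Qt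
    simp only [sub_mul, Finset.sum_sub_distrib]
    have e4 : ∑ i, pdm i (fun y => ∑ j, TP s₁ P₁ i j y * pdm j (Y a) y) x =
        -∑ i, kp s₁ G₁ i x * pdm i (Y a) x := eq_neg_of_add_eq_zero_left e1
    rw [e4] at e2
    have e5 : ∑ i, kp s₂ G₂ i x * pdm i (Y a) x - ∑ i, kp s₁ G₁ i x * pdm i (Y a) x
        + (∑ i, pdm i (PhG s₁ s₂ P₁ P₂ Y D a i) x + ∑ i, kp s₂ G₂ i x * pdm i (D a) x) = 0 := by
      rw [← e2]
      abel
    exact eq_neg_of_add_eq_zero_left e5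
  · simp only [Q_off h _ hx, pdm_zero_off h.reg (h.sD a) (h.oD a) _ hx,
      pdm_zero_off h.reg (smC_PhG h a _) (fun y hy => PhG_off h a _ hy) _ hx, zero_mul, mul_zero,
      Finset.sum_const_zero, add_zero, neg_zero]

/-- `q_b = - ∑_a E_a Γ_ab`. -/
theorem Q_eq (h : RP k δ Ω s₁ s₂ P₁ P₂ G₁ G₂ Y D) {Γ : Fin n → Fin n → MC n N}
    (hΓ : ∀ l b x, ∑ a, pdm l (Y a) x * Γ a b x = if l = b then 1 else 0) (b : Fin n) (x : V n) :
    Qt s₁ s₂ G₁ G₂ b x =
      -∑ a, (∑ i, pdm i (PhG s₁ s₂ P₁ P₂ Y D a i) x + ∑ i, kp s₂ G₂ i x * pdm i (D a) x)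
        * Γ a b x := by
  calc Qt s₁ s₂ G₁ G₂ b x = ∑ l, Qt s₁ s₂ G₁ G₂ l x * (if l = b then 1 else 0) := by simp
    _ = ∑ l, Qt s₁ s₂ G₁ G₂ l x * ∑ a, pdm l (Y a) x * Γ a b x :=
        Finset.sum_congr rfl fun l _ => by rw [hΓ]
    _ = ∑ a, (∑ l, Qt s₁ s₂ G₁ G₂ l x * pdm l (Y a) x) * Γ a b x := by
        simp only [Finset.mul_sum, Finset.sum_mul, ← mul_assoc]
        exact Finset.sum_comm
    _ = _ := by
        simp only [gauge h, neg_mul, Finset.sum_neg_distrib]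

/-! ## Integration by parts -/

theorem pd_trace {A : MC n N} (hA : SmC A) (i : Fin n) (x : V n) :
    pd i (fun x => (A x).trace) x = (pdm i A x).trace := by
  unfold Matrix.trace
  simp only [Matrix.diag_apply]
  rw [pd_sum fun k _ => dfa (hA k k) x]
  rfl

theorem ibp {A g : MC n N} (hA : SmC A) (hg : SmC g) (h0 : ∀ x ∉ bl0 n, A x = 0) (i : Fin n) :
    ∫ x, (pdm i A x * g x).trace = -∫ x, (A x * pdm i g x).trace := by
  have hAg := SmC_mul hA hg
  have h1 := (integral_pd_zero (bounded_bl0 n) (cd_trace hAg)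
    (fun x hx => by simp only [h0 x hx, zero_mul, Matrix.trace_zero]) i)
  have e : pd i (fun x => (A x * g x).trace) =
      fun x => (pdm i A x * g x).trace + (A x * pdm i g x).trace := by
    funext x
    rw [pd_trace hAg, pdm_mul hA hg, Matrix.trace_add]
  have i2 : Integrable fun x => (A x * pdm i g x).trace :=
    integrable_of (cd_trace (SmC_mul hA (smC_pdm hg i))).continuous
      fun x hx => by simp only [h0 x hx, zero_mul, Matrix.trace_zero]
  rw [e] at h1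
  have i1 : Integrable fun x => (pdm i A x * g x).trace := by
    have := h1.1.sub i2
    refine this.congr (Filter.Eventually.of_forall fun x => ?_)
    simp
  have h2 := h1.2
  rw [integral_add i1 i2] at h2
  exact eq_neg_of_add_eq_zero_left h2

/-! ## Bounds of coefficients -/

theorem clc_ent {A : MC n N} (h : ClC k δ A) (x : V n) (a b : Fin N) : ‖A x a b‖ ≤ δ := by
  have := h a b 0 (Nat.zero_le _) x
  rwa [norm_iteratedFDeriv_zero] at this

theorem cl_pd_le {F : Type*} [NormedAddCommGroup F] [NormedSpace ℝ F] {f : V n → F}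
    (h : Cl k δ f) (hk : 1 ≤ k) (i : Fin n) (x : V n) : ‖pd i f x‖ ≤ δ := by
  have h1 := h 1 hk x
  rw [norm_iteratedFDeriv_one] at h1
  unfold pd
  calc ‖fderiv ℝ f x (Pi.single i 1)‖ ≤ ‖fderiv ℝ f x‖ * ‖(Pi.single i 1 : V n)‖ :=
        ContinuousLinearMap.le_opNorm _ _
    _ ≤ δ * 1 := by
        refine mul_le_mul h1 ?_ (norm_nonneg _) ((norm_nonneg _).trans h1)
        rw [Pi.norm_single, norm_one]
    _ = δ := mul_one _

theorem clc_pd_ent {A : MC n N} (h : ClC k δ A) (hk : 1 ≤ k) (i : Fin n) (x : V n)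
    (a b : Fin N) : ‖pdm i A x a b‖ ≤ δ := cl_pd_le (h a b) hk i x

theorem one_ent_le (a b : Fin N) : ‖(1 : Matrix (Fin N) (Fin N) ℂ) a b‖ ≤ 1 := by
  rcases eq_or_ne a b with rfl | h
  · rw [Matrix.one_apply_eq, norm_one]
  · rw [Matrix.one_apply_ne h, norm_zero]
    exact zero_le_one

theorem s_le {s : MF n} (hδ : δ ≤ 1)
    (h : ∀ i j, Cl k δ (fun x => s x i j - (1 : Matrix (Fin n) (Fin n) ℝ) i j)) (i j : Fin n)
    (x : V n) : ‖((s x i j : ℝ) : ℂ)‖ ≤ 2 := by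
  have h1 := h i j 0 (Nat.zero_le _) x
  rw [norm_iteratedFDeriv_zero, Real.norm_eq_abs] at h1
  rw [Complex.norm_real, Real.norm_eq_abs]
  have h2 : |(1 : Matrix (Fin n) (Fin n) ℝ) i j| ≤ 1 := by
    rcases eq_or_ne i j with rfl | h
    · rw [Matrix.one_apply_eq, abs_one]
    · rw [Matrix.one_apply_ne h, abs_zero]
      exact zero_le_one
  have h3 := abs_le.1 h1
  have h4 := abs_le.1 h2
  exact abs_le.2 ⟨by linarith, by linarith⟩

theorem P_le {P : MC n N} (hδ : δ ≤ 1) (h : ClC k δ fun x => P x - 1) (x : V n) :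
    fn (P x) ≤ N * 2 := by
  refine fn_le_of_entries zero_le_two fun a b => ?_
  have h1 := clc_ent h x a b
  have h2 := one_ent_le a b
  have h3 : P x a b = (P x - 1) a b + (1 : Matrix (Fin N) (Fin N) ℂ) a b := by
    simp
  rw [h3]
  refine (norm_add_le _ _).trans ?_
  linarith

theorem G_le {G : MC n N} (hδ : δ ≤ 1) (h : ClC k δ G) (x : V n) : fn (G x) ≤ N * 1 :=
  fn_le_of_entries zero_le_one fun a b => (clc_ent h x a b).trans hδ

theorem kp_le {s : MF n} {G : Fin n → MC n N} (hδ : δ ≤ 1)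
    (h : ∀ i j, Cl k δ (fun x => s x i j - (1 : Matrix (Fin n) (Fin n) ℝ) i j))
    (hG : ∀ i, ClC k δ (G i)) (i : Fin n) (x : V n) : fn (kp s G i x) ≤ n * (2 * N) := by
  unfold kp
  refine (fn_sum_le _ _).trans ?_
  calc ∑ j, fn ((s x i j : ℂ) • G j x) ≤ ∑ _j : Fin n, (2 * N : ℝ) := by
        refine Finset.sum_le_sum fun j _ => ?_
        rw [fn_smul]
        refine mul_le_mul (s_le hδ h i j x) ((G_le hδ (hG j) x).trans (mul_one _).le)
          (fn_nonneg _) zero_le_two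
    _ = n * (2 * N) := by simp

theorem TP_le {s : MF n} {P A : MC n N} (hδ : δ ≤ 1)
    (h : ∀ i j, Cl k δ (fun x => s x i j - (1 : Matrix (Fin n) (Fin n) ℝ) i j))
    (hP : ClC k δ fun x => P x - 1) (i j : Fin n) (x : V n) :
    fn (TP s P i j x * A x) ≤ 4 * N * fn (A x) := by
  refine (fn_mul_le _ _).trans (mul_le_mul_of_nonneg_right ?_ (fn_nonneg _))
  unfold TP
  rw [fn_smul]
  calc ‖((s x i j : ℝ) : ℂ)‖ * fn (P x) ≤ 2 * (N * 2) :=
        mul_le_mul (s_le hδ h i j x) (P_le hδ hP x) (fn_nonneg _) zero_le_two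
    _ = 4 * N := by ring

theorem pdY_le {Y : MC n N} (hY : SmC Y) (a : Fin n) (hδ : δ ≤ 1)
    (h : ClC k δ fun x => Y x - (x a : ℂ) • 1) (hk : 1 ≤ k) (j : Fin n) (x : V n) :
    fn (pdm j Y x) ≤ N * 2 := by
  refine fn_le_of_entries zero_le_two fun α β => ?_
  have hx : ContDiff ℝ ∞ fun x : V n => ((x a : ℝ) : ℂ) * (1 : Matrix (Fin N) (Fin N) ℂ) α β :=
    (Complex.ofRealCLM.contDiff.comp (contDiff_apply ℝ ℝ a)).mul contDiff_const
  have h1 : pdm j Y x α β = pd j (fun x => (Y x - (x a : ℂ) • 1) α β) x +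
      pd j (fun x : V n => ((x a : ℝ) : ℂ) * (1 : Matrix (Fin N) (Fin N) ℂ) α β) x := by
    have e : (fun x => (Y x - (x a : ℂ) • (1 : Matrix (Fin N) (Fin N) ℂ)) α β) = fun x =>
        Y x α β - ((x a : ℝ) : ℂ) * (1 : Matrix (Fin N) (Fin N) ℂ) α β := by
      funext x
      simp
    rw [e, pd_sub (dfa (hY α β) x) (dfa hx x) j]
    simp [pdm]
  have h2 := cl_pd_le (h α β) hk j x
  have h3 : ‖pd j (fun x : V n => ((x a : ℝ) : ℂ) * (1 : Matrix (Fin N) (Fin N) ℂ) α β) x‖ ≤ 1 := by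
    have e : pd j (fun x : V n => ((x a : ℝ) : ℂ) * (1 : Matrix (Fin N) (Fin N) ℂ) α β) x =
        (if a = j then 1 else 0) * (1 : Matrix (Fin N) (Fin N) ℂ) α β := by
      have hd : HasFDerivAt (fun x : V n => ((x a : ℝ) : ℂ))
          (Complex.ofRealCLM.comp (ContinuousLinearMap.proj (R := ℝ) a)) x :=
        Complex.ofRealCLM.hasFDerivAt.comp x
          (ContinuousLinearMap.hasFDerivAt (ContinuousLinearMap.proj (R := ℝ) (φ := fun _ : Fin n => ℝ) a))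
      unfold pd
      rw [(hd.mul_const _).fderiv]
      by_cases haj : a = j
      · subst haj
        simp
      · simp [haj]
    rw [e, norm_mul]
    have h4 := one_ent_le α β
    split_ifs
    · rw [norm_one, one_mul]
      exact h4
    · rw [norm_zero, zero_mul]
      exact zero_le_one
  rw [h1]
  refine (norm_add_le _ _).trans ?_
  linarith

theorem Γ_le {C : Matrix (Fin N) (Fin N) ℂ} {Γ : MC n N} (hC : C = 1 ∨ C = 0) (hδ : δ ≤ 1)
    (h : ClC k δ fun x => Γ x - C) (x : V n) : fn (Γ x) ≤ N * 2 := by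
  refine fn_le_of_entries zero_le_two fun a b => ?_
  have h1 := clc_ent h x a b
  have h2 : ‖C a b‖ ≤ 1 := by
    rcases hC with rfl | rfl
    · exact one_ent_le a b
    · simp
  have h3 : Γ x a b = (Γ x - C) a b + C a b := by
    simp
  rw [h3]
  refine (norm_add_le _ _).trans ?_
  linarith

theorem pdΓ_le {C : Matrix (Fin N) (Fin N) ℂ} {Γ : MC n N} (hΓ : SmC Γ) (hδ : δ ≤ 1)
    (h : ClC k δ fun x => Γ x - C) (hk : 1 ≤ k) (i : Fin n) (x : V n) :
    fn (pdm i Γ x) ≤ N * 1 := by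
  refine fn_le_of_entries zero_le_one fun a b => ?_
  have h1 := clc_pd_ent h hk i x a b
  have h2 : pdm i (fun x => Γ x - C) x = pdm i Γ x := by
    rw [pdm_sub (Q := fun _ => C) hΓ (fun _ _ => contDiff_const), pdm_const, sub_zero]
  rw [h2] at h1
  exact h1.trans hδ

end Vale.Agent.P088.R2.H644
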