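import Vale.Agent.P088.R2.H644.Gau

/-!
# P088, row QW: the weak bound of `q = κ₂ - κ₁`
-/

open MeasureTheory Set
open scoped ContDiff Matrix

noncomputable section

namespace Vale.Agent.P088.R2.H644

open Vale.Agent.P088.LR Vale.Agent.P088.LR.U Vale.Agent.P088.LR.H158
open Vale.Agent.P088.PJ Vale.Agent.P088.LR.U.H129

variable {n N k : ℕ} {δ : ℝ} {Ω : Set (V n)} {s₁ s₂ : MF n} {P₁ P₂ : MC n N}
  {G₁ G₂ Y D : Fin n → MC n N}

/-! ## Pointwise quantities -/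

/-- `∑ |s₂ - s₁| + |P₂ - P₁| + ∑ |∂_i D_a|`. -/
def Up (s₁ s₂ : MF n) (P₁ P₂ : MC n N) (D : Fin n → MC n N) (x : V n) : ℝ :=
  (∑ i, ∑ j, |s₂ x i j - s₁ x i j|) + fn (P₂ x - P₁ x) + ∑ a, ∑ i, fn (pdm i (D a) x)

/-- `∑ |s₂ - s₁|² + |P₂ - P₁|² + ∑ |∂_i D_a|²`. -/
def up (s₁ s₂ : MF n) (P₁ P₂ : MC n N) (D : Fin n → MC n N) (x : V n) : ℝ :=
  (∑ i, ∑ j, (s₂ x i j - s₁ x i j) ^ 2) + nq (P₂ x - P₁ x) + ∑ a, ∑ i, nq (pdm i (D a) x)

/-- `∑ |f_i| + ∑ |∂_j f_i|`. -/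
def Wp (f : Fin n → MC n N) (x : V n) : ℝ := ∑ i, (fn (f i x) + ∑ j, fn (pdm j (f i) x))

/-- `∑ |f_i|² + ∑ |∂_j f_i|²`. -/
def wp (f : Fin n → MC n N) (x : V n) : ℝ := ∑ i, (nq (f i x) + ∑ j, nq (pdm j (f i) x))

theorem Up_nonneg (x : V n) : 0 ≤ Up s₁ s₂ P₁ P₂ D x :=
  add_nonneg (add_nonneg (Finset.sum_nonneg fun _ _ => Finset.sum_nonneg fun _ _ => abs_nonneg _)
    (fn_nonneg _)) (Finset.sum_nonneg fun _ _ => Finset.sum_nonneg fun _ _ => fn_nonneg _)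

theorem up_nonneg (x : V n) : 0 ≤ up s₁ s₂ P₁ P₂ D x :=
  add_nonneg (add_nonneg (Finset.sum_nonneg fun _ _ => Finset.sum_nonneg fun _ _ => sq_nonneg _)
    (nq_nonneg _)) (Finset.sum_nonneg fun _ _ => Finset.sum_nonneg fun _ _ => nq_nonneg _)

theorem Wp_nonneg (f : Fin n → MC n N) (x : V n) : 0 ≤ Wp f x :=
  Finset.sum_nonneg fun _ _ => add_nonneg (fn_nonneg _) (Finset.sum_nonneg fun _ _ => fn_nonneg _)

theorem wp_nonneg (f : Fin n → MC n N) (x : V n) : 0 ≤ wp f x :=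
  Finset.sum_nonneg fun _ _ => add_nonneg (nq_nonneg _) (Finset.sum_nonneg fun _ _ => nq_nonneg _)

/-- `(∑ c_i)² ≤ m ∑ c_i²`. -/
theorem sq_sum_le {ι : Type*} (s : Finset ι) (c : ι → ℝ) :
    (∑ i ∈ s, c i) ^ 2 ≤ s.card * ∑ i ∈ s, c i ^ 2 := sq_sum_le_card_mul_sum_sq

theorem sq_sum2_le (c : Fin n → Fin n → ℝ) :
    (∑ i, ∑ j, c i j) ^ 2 ≤ (n : ℝ) * (n * ∑ i, ∑ j, c i j ^ 2) := by
  have h1 := sq_sum_le Finset.univ fun i => ∑ j, c i j
  simp only [Finset.card_univ, Fintype.card_fin] at h1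
  refine h1.trans (mul_le_mul_of_nonneg_left ?_ (Nat.cast_nonneg n))
  rw [Finset.mul_sum]
  refine Finset.sum_le_sum fun i _ => ?_
  have h2 := sq_sum_le Finset.univ fun j => c i j
  simp only [Finset.card_univ, Fintype.card_fin] at h2
  exact h2

theorem Up_sq (x : V n) : Up s₁ s₂ P₁ P₂ D x ^ 2 ≤ 3 * (n * n + 1) * up s₁ s₂ P₁ P₂ D x := by
  unfold Up up
  have h1 := sq_sum2_le fun i j => |s₂ x i j - s₁ x i j|
  simp only [sq_abs] at h1
  have h2 := fn_sq (P₂ x - P₁ x)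
  have h3 := sq_sum2_le fun a i => fn (pdm i (D a) x)
  simp only [fn_sq] at h3
  have p1 : 0 ≤ ∑ i, ∑ j, (s₂ x i j - s₁ x i j) ^ 2 :=
    Finset.sum_nonneg fun _ _ => Finset.sum_nonneg fun _ _ => sq_nonneg _
  have p2 := nq_nonneg (P₂ x - P₁ x)
  have p3 : 0 ≤ ∑ a, ∑ i, nq (pdm i (D a) x) :=
    Finset.sum_nonneg fun _ _ => Finset.sum_nonneg fun _ _ => nq_nonneg _
  set A := ∑ i, ∑ j, |s₂ x i j - s₁ x i j|
  set B := fn (P₂ x - P₁ x)
  set C := ∑ a, ∑ i, fn (pdm i (D a) x)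
  set A' := ∑ i, ∑ j, (s₂ x i j - s₁ x i j) ^ 2
  set B' := nq (P₂ x - P₁ x)
  set C' := ∑ a, ∑ i, nq (pdm i (D a) x)
  have hn : (0 : ℝ) ≤ n * n := mul_self_nonneg _
  nlinarith [sq_nonneg (A - B), sq_nonneg (B - C), sq_nonneg (A - C), mul_nonneg hn p2]

theorem Wp_sq (f : Fin n → MC n N) (x : V n) : Wp f x ^ 2 ≤ 2 * (n * (n + 1)) * wp f x := by
  unfold Wp wp
  rw [Finset.sum_add_distrib, Finset.sum_add_distrib]
  have h1 := sq_sum_le Finset.univ fun i => fn (f i x)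
  simp only [Finset.card_univ, Fintype.card_fin, fn_sq] at h1
  have h3 := sq_sum2_le fun i j => fn (pdm j (f i) x)
  simp only [fn_sq] at h3
  have p1 : 0 ≤ ∑ i, nq (f i x) := Finset.sum_nonneg fun _ _ => nq_nonneg _
  have p3 : 0 ≤ ∑ i, ∑ j, nq (pdm j (f i) x) :=
    Finset.sum_nonneg fun _ _ => Finset.sum_nonneg fun _ _ => nq_nonneg _
  set A := ∑ i, fn (f i x)
  set C := ∑ i, ∑ j, fn (pdm j (f i) x)
  set A' := ∑ i, nq (f i x)
  set C' := ∑ i, ∑ j, nq (pdm j (f i) x)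
  have hn : (0 : ℝ) ≤ n := Nat.cast_nonneg n
  nlinarith [sq_nonneg (A - C), mul_nonneg hn p1, mul_nonneg hn p3, mul_nonneg hn
    (mul_nonneg hn p1)]

/-! ## The bound of the flux -/

theorem Z_le (h : RP k δ Ω s₁ s₂ P₁ P₂ G₁ G₂ Y D) (hδ : δ ≤ 1) (i j : Fin n) (x : V n) :
    fn (Zt s₁ s₂ P₁ P₂ i j x) ≤ (2 * N + 2) * Up s₁ s₂ P₁ P₂ D x := by
  have e : Zt s₁ s₂ P₁ P₂ i j x = (((s₂ x i j - s₁ x i j : ℝ)) : ℂ) • P₂ x
      + ((s₁ x i j : ℝ) : ℂ) • (P₂ x - P₁ x) := by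
    unfold Zt TP
    rw [Complex.ofReal_sub, sub_smul, smul_sub]
    abel
  have h1 : |s₂ x i j - s₁ x i j| ≤ Up s₁ s₂ P₁ P₂ D x := by
    unfold Up
    have a1 : |s₂ x i j - s₁ x i j| ≤ ∑ j, |s₂ x i j - s₁ x i j| :=
      Finset.single_le_sum (f := fun j => |s₂ x i j - s₁ x i j|) (fun _ _ => abs_nonneg _)
        (Finset.mem_univ j)
    have a2 : ∑ j, |s₂ x i j - s₁ x i j| ≤ ∑ i, ∑ j, |s₂ x i j - s₁ x i j| :=
      Finset.single_le_sum (f := fun i => ∑ j, |s₂ x i j - s₁ x i j|)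
        (fun _ _ => Finset.sum_nonneg fun _ _ => abs_nonneg _) (Finset.mem_univ i)
    have a3 := fn_nonneg (P₂ x - P₁ x)
    have a4 : 0 ≤ ∑ a, ∑ i, fn (pdm i (D a) x) :=
      Finset.sum_nonneg fun _ _ => Finset.sum_nonneg fun _ _ => fn_nonneg _
    linarith
  have h2 : fn (P₂ x - P₁ x) ≤ Up s₁ s₂ P₁ P₂ D x := by
    unfold Up
    have a1 : 0 ≤ ∑ i, ∑ j, |s₂ x i j - s₁ x i j| :=
      Finset.sum_nonneg fun _ _ => Finset.sum_nonneg fun _ _ => abs_nonneg _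
    have a4 : 0 ≤ ∑ a, ∑ i, fn (pdm i (D a) x) :=
      Finset.sum_nonneg fun _ _ => Finset.sum_nonneg fun _ _ => fn_nonneg _
    linarith
  rw [e]
  refine (fn_add_le _ _).trans ?_
  rw [fn_smul, fn_smul, Complex.norm_real, Real.norm_eq_abs]
  have h3 := P_le hδ h.d₂.cP x
  have h4 := s_le hδ h.d₁.cs i j x
  have hU := Up_nonneg (s₁ := s₁) (s₂ := s₂) (P₁ := P₁) (P₂ := P₂) (D := D) x
  calc |s₂ x i j - s₁ x i j| * fn (P₂ x) + ‖((s₁ x i j : ℝ) : ℂ)‖ * fn (P₂ x - P₁ x)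
      ≤ Up s₁ s₂ P₁ P₂ D x * (N * 2) + 2 * Up s₁ s₂ P₁ P₂ D x :=
        add_le_add (mul_le_mul h1 h3 (fn_nonneg _) hU)
          (mul_le_mul h4 h2 (fn_nonneg _) zero_le_two)
    _ = _ := by ring

theorem pdD_le (a i : Fin n) (x : V n) : fn (pdm i (D a) x) ≤ Up s₁ s₂ P₁ P₂ D x := by
  unfold Up
  have a1 : 0 ≤ ∑ i, ∑ j, |s₂ x i j - s₁ x i j| :=
    Finset.sum_nonneg fun _ _ => Finset.sum_nonneg fun _ _ => abs_nonneg _
  have a2 := fn_nonneg (P₂ x - P₁ x)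
  have a3 : fn (pdm i (D a) x) ≤ ∑ i, fn (pdm i (D a) x) :=
    Finset.single_le_sum (f := fun i => fn (pdm i (D a) x)) (fun _ _ => fn_nonneg _)
      (Finset.mem_univ i)
  have a4 : ∑ i, fn (pdm i (D a) x) ≤ ∑ a, ∑ i, fn (pdm i (D a) x) :=
    Finset.single_le_sum (f := fun a => ∑ i, fn (pdm i (D a) x))
      (fun _ _ => Finset.sum_nonneg fun _ _ => fn_nonneg _) (Finset.mem_univ a)
  linarith

theorem PhG_le (h : RP k δ Ω s₁ s₂ P₁ P₂ G₁ G₂ Y D) (hδ : δ ≤ 1) (hk : 1 ≤ k) (a i : Fin n)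
    (x : V n) : fn (PhG s₁ s₂ P₁ P₂ Y D a i x) ≤
      n * (((2 * N + 2) * (N * 2)) + 4 * N) * Up s₁ s₂ P₁ P₂ D x := by
  have hU := Up_nonneg (s₁ := s₁) (s₂ := s₂) (P₁ := P₁) (P₂ := P₂) (D := D) x
  unfold PhG
  refine (fn_add_le _ _).trans ?_
  have h1 : fn (∑ j, Zt s₁ s₂ P₁ P₂ i j x * pdm j (Y a) x) ≤
      n * ((2 * N + 2) * Up s₁ s₂ P₁ P₂ D x * (N * 2)) := by
    refine (fn_sum_le _ _).trans ?_
    refine (Finset.sum_le_card_nsmul _ _ ((2 * N + 2) * Up s₁ s₂ P₁ P₂ D x * (N * 2))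
      fun j _ => ?_).trans (by simp)
    refine (fn_mul_le _ _).trans (mul_le_mul (Z_le h hδ i j x)
      (pdY_le (h.sY a) a hδ (h.cY a) hk j x) (fn_nonneg _) (by positivity))
  have h2 : fn (∑ j, TP s₂ P₂ i j x * pdm j (D a) x) ≤
      n * (4 * N * Up s₁ s₂ P₁ P₂ D x) := by
    refine (fn_sum_le _ _).trans ?_
    refine (Finset.sum_le_card_nsmul _ _ (4 * N * Up s₁ s₂ P₁ P₂ D x)
      fun j _ => ?_).trans (by simp)
    exact (TP_le (A := pdm j (D a)) hδ h.d₂.cs h.d₂.cP i j x).trans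
      (mul_le_mul_of_nonneg_left (pdD_le a j x) (by positivity))
  refine (add_le_add h1 h2).trans (le_of_eq ?_)
  ring

/-! ## The test functions -/

/-- `g_a = ∑_b Γ_ab f_b`. -/
def gf (Γ : Fin n → Fin n → MC n N) (f : Fin n → MC n N) (a : Fin n) : MC n N := fun x =>
  ∑ b, Γ a b x * f b x

theorem smC_gf {Γ : Fin n → Fin n → MC n N} (hΓ : ∀ a b, SmC (Γ a b)) {f : Fin n → MC n N}
    (hf : ∀ i, SmC (f i)) (a : Fin n) : SmC (gf Γ f a) :=
  smC_fsum fun b => SmC_mul (hΓ a b) (hf b)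

theorem fW (f : Fin n → MC n N) (b : Fin n) (x : V n) :
    fn (f b x) + ∑ j, fn (pdm j (f b) x) ≤ Wp f x := by
  unfold Wp
  exact Finset.single_le_sum (f := fun b => fn (f b x) + ∑ j, fn (pdm j (f b) x))
    (fun _ _ => add_nonneg (fn_nonneg _) (Finset.sum_nonneg fun _ _ => fn_nonneg _))
    (Finset.mem_univ b)

theorem gf_le {Γ : Fin n → Fin n → MC n N} (h : ∀ a b x, fn (Γ a b x) ≤ N * 2)
    (f : Fin n → MC n N) (a : Fin n) (x : V n) :
    fn (gf Γ f a x) ≤ n * (N * 2) * Wp f x := by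
  unfold gf
  refine (fn_sum_le _ _).trans ((Finset.sum_le_card_nsmul _ _ (N * 2 * Wp f x)
    fun b _ => ?_).trans (by simp [mul_assoc]))
  have h1 := fW f b x
  have h2 : 0 ≤ ∑ j, fn (pdm j (f b) x) := Finset.sum_nonneg fun _ _ => fn_nonneg _
  exact (fn_mul_le _ _).trans (mul_le_mul (h a b x) (by linarith) (fn_nonneg _) (by positivity))

theorem pdgf_le {Γ : Fin n → Fin n → MC n N} (hΓ : ∀ a b, SmC (Γ a b))
    (h : ∀ a b x, fn (Γ a b x) ≤ N * 2) (h' : ∀ a b i x, fn (pdm i (Γ a b) x) ≤ N * 1)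
    {f : Fin n → MC n N} (hf : ∀ i, SmC (f i)) (a i : Fin n) (x : V n) :
    fn (pdm i (gf Γ f a) x) ≤ n * (N * 2) * Wp f x := by
  have e : pdm i (gf Γ f a) x = ∑ b, (pdm i (Γ a b) x * f b x + Γ a b x * pdm i (f b) x) := by
    simp only [← pdm_mul (hΓ a _) (hf _)]
    ext α β
    unfold gf
    simp only [pdm, Matrix.of_apply, Matrix.sum_apply]
    exact pd_sum (f := fun b y => (Γ a b y * f b y) α β)
      (fun b _ => dfa (SmC_mul (hΓ a b) (hf b) α β) x) i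
  rw [e]
  refine (fn_sum_le _ _).trans ((Finset.sum_le_card_nsmul _ _ (N * 2 * Wp f x)
    fun b _ => ?_).trans (by simp [mul_assoc]))
  have h1 := fW f b x
  have h2 : fn (pdm i (f b) x) ≤ ∑ j, fn (pdm j (f b) x) :=
    Finset.single_le_sum (f := fun j => fn (pdm j (f b) x)) (fun _ _ => fn_nonneg _)
      (Finset.mem_univ i)
  have h3 := fn_nonneg (f b x)
  have h4 := fn_nonneg (pdm i (f b) x)
  have hN : (0 : ℝ) ≤ N := Nat.cast_nonneg N
  calc fn (pdm i (Γ a b) x * f b x + Γ a b x * pdm i (f b) x)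
      ≤ fn (pdm i (Γ a b) x) * fn (f b x) + fn (Γ a b x) * fn (pdm i (f b) x) :=
        (fn_add_le _ _).trans (add_le_add (fn_mul_le _ _) (fn_mul_le _ _))
    _ ≤ (N * 1) * fn (f b x) + (N * 2) * fn (pdm i (f b) x) :=
        add_le_add (mul_le_mul_of_nonneg_right (h' a b i x) h3)
          (mul_le_mul_of_nonneg_right (h a b x) h4)
    _ ≤ N * 2 * Wp f x := by nlinarith [mul_nonneg hN h3]

/-! ## The form after integration by parts -/

/-- The integrand after integration by parts. -/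
def Rf (s₁ s₂ : MF n) (P₁ P₂ : MC n N) (G₂ Y D : Fin n → MC n N) (g : Fin n → MC n N)
    (x : V n) : ℂ :=
  ∑ a, ∑ i, ((PhG s₁ s₂ P₁ P₂ Y D a i x * pdm i (g a) x).trace
    - (kp s₂ G₂ i x * pdm i (D a) x * g a x).trace)

theorem int_Q (h : RP k δ Ω s₁ s₂ P₁ P₂ G₁ G₂ Y D) {Γ : Fin n → Fin n → MC n N}
    (hΓs : ∀ a b, SmC (Γ a b))
    (hΓ : ∀ l b x, ∑ a, pdm l (Y a) x * Γ a b x = if l = b then 1 else 0)
    {f : Fin n → MC n N} (hf : ∀ i, SmC (f i)) :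
    ∫ x, ∑ i, (Qt s₁ s₂ G₁ G₂ i x * f i x).trace = ∫ x, Rf s₁ s₂ P₁ P₂ G₂ Y D (gf Γ f) x := by
  have hg := smC_gf hΓs hf
  have e1 : ∀ x, ∑ b, (Qt s₁ s₂ G₁ G₂ b x * f b x).trace =
      ∑ a, ∑ i, (-(pdm i (PhG s₁ s₂ P₁ P₂ Y D a i) x * gf Γ f a x).trace
        - (kp s₂ G₂ i x * pdm i (D a) x * gf Γ f a x).trace) := by
    intro x
    have e2 : ∀ b, Qt s₁ s₂ G₁ G₂ b x * f b x =
        ∑ a, -((∑ i, pdm i (PhG s₁ s₂ P₁ P₂ Y D a i) x + ∑ i, kp s₂ G₂ i x * pdm i (D a) x)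
          * (Γ a b x * f b x)) := by
      intro b
      rw [Q_eq h hΓ b x, neg_mul, Finset.sum_mul, ← Finset.sum_neg_distrib]
      exact Finset.sum_congr rfl fun a _ => by rw [mul_assoc]
    rw [← Matrix.trace_sum]
    simp only [e2]
    rw [Finset.sum_comm]
    have e3 : ∀ a, ∑ b, -((∑ i, pdm i (PhG s₁ s₂ P₁ P₂ Y D a i) x
        + ∑ i, kp s₂ G₂ i x * pdm i (D a) x) * (Γ a b x * f b x)) =
        ∑ i, (-(pdm i (PhG s₁ s₂ P₁ P₂ Y D a i) x * gf Γ f a x)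
          - kp s₂ G₂ i x * pdm i (D a) x * gf Γ f a x) := by
      intro a
      rw [Finset.sum_neg_distrib, ← Finset.mul_sum, Finset.sum_sub_distrib,
        Finset.sum_neg_distrib, ← Finset.sum_mul, ← Finset.sum_mul]
      show -((_ + _) * gf Γ f a x) = _
      rw [add_mul]
      abel
    simp only [e3, Matrix.trace_sum, Matrix.trace_sub, Matrix.trace_neg]
  simp only [e1]
  have i1 : ∀ a i, Integrable fun x => (pdm i (PhG s₁ s₂ P₁ P₂ Y D a i) x * gf Γ f a x).trace :=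
    fun a i => integrable_of (cd_trace (SmC_mul (smC_pdm (smC_PhG h a i) i) (hg a))).continuous
      fun x hx => by
        rw [pdm_zero_off h.reg (smC_PhG h a i) (fun y hy => PhG_off h a i hy) i
          fun hx' => hx (h.sub hx'), zero_mul, Matrix.trace_zero]
  have i2 : ∀ a i, Integrable fun x => (kp s₂ G₂ i x * pdm i (D a) x * gf Γ f a x).trace :=
    fun a i => integrable_of (cd_trace (SmC_mul (SmC_mul (smC_kp h.d₂.ss h.d₂.sG i)
      (smC_pdm (h.sD a) i)) (hg a))).continuous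
      fun x hx => by
        rw [pdm_zero_off h.reg (h.sD a) (h.oD a) i fun hx' => hx (h.sub hx'), mul_zero, zero_mul,
          Matrix.trace_zero]
  have i3 : ∀ a i, Integrable fun x => (PhG s₁ s₂ P₁ P₂ Y D a i x * pdm i (gf Γ f a) x).trace :=
    fun a i => integrable_of (cd_trace (SmC_mul (smC_PhG h a i) (smC_pdm (hg a) i))).continuous
      fun x hx => by
        rw [PhG_off h a i fun hx' => hx (h.sub hx'), zero_mul, Matrix.trace_zero]
  have i4 : ∀ a i, Integrable fun x => -(pdm i (PhG s₁ s₂ P₁ P₂ Y D a i) x * gf Γ f a x).trace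
      - (kp s₂ G₂ i x * pdm i (D a) x * gf Γ f a x).trace :=
    fun a i => (i1 a i).neg.sub (i2 a i)
  have i5 : ∀ a i, Integrable fun x => (PhG s₁ s₂ P₁ P₂ Y D a i x * pdm i (gf Γ f a) x).trace
      - (kp s₂ G₂ i x * pdm i (D a) x * gf Γ f a x).trace :=
    fun a i => (i3 a i).sub (i2 a i)
  rw [integral_finsetSum _ fun a _ => integrable_finsetSum _ fun i _ => i4 a i]
  unfold Rf
  rw [integral_finsetSum _ fun a _ => integrable_finsetSum _ fun i _ => i5 a i]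
  refine Finset.sum_congr rfl fun a _ => ?_
  rw [integral_finsetSum _ fun i _ => i4 a i, integral_finsetSum _ fun i _ => i5 a i]
  refine Finset.sum_congr rfl fun i _ => ?_
  have i6 : Integrable fun x => -(pdm i (PhG s₁ s₂ P₁ P₂ Y D a i) x * gf Γ f a x).trace :=
    (i1 a i).neg
  rw [integral_sub i6 (i2 a i), integral_sub (i3 a i) (i2 a i)]
  congr 1
  have := ibp (smC_PhG h a i) (hg a) (fun x hx => PhG_off h a i fun hx' => hx (h.sub hx')) i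
  rw [integral_neg, this, neg_neg]

theorem Rf_le (h : RP k δ Ω s₁ s₂ P₁ P₂ G₁ G₂ Y D) (hδ : δ ≤ 1) (hk : 1 ≤ k)
    {g : Fin n → MC n N} {W : ℝ} {x : V n} (h1 : ∀ a, fn (g a x) ≤ W)
    (h2 : ∀ a i, fn (pdm i (g a) x) ≤ W) : ‖Rf s₁ s₂ P₁ P₂ G₂ Y D g x‖ ≤
      (n * (n * (N * (n * (((2 * N + 2) * (N * 2)) + 4 * N) + n * (2 * N))))) *
        (Up s₁ s₂ P₁ P₂ D x * W) := by
  have hU := Up_nonneg (s₁ := s₁) (s₂ := s₂) (P₁ := P₁) (P₂ := P₂) (D := D) x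
  have key : ∀ a i, ‖(PhG s₁ s₂ P₁ P₂ Y D a i x * pdm i (g a) x).trace
      - (kp s₂ G₂ i x * pdm i (D a) x * g a x).trace‖ ≤
      N * (n * (((2 * N + 2) * (N * 2)) + 4 * N) + n * (2 * N)) *
        (Up s₁ s₂ P₁ P₂ D x * W) := by
    intro a i
    have a1 : ‖(PhG s₁ s₂ P₁ P₂ Y D a i x * pdm i (g a) x).trace‖ ≤
        N * (n * (((2 * N + 2) * (N * 2)) + 4 * N) * Up s₁ s₂ P₁ P₂ D x * W) :=
      (trace_mul_le _ _).trans (mul_le_mul_of_nonneg_left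
        (mul_le_mul (PhG_le h hδ hk a i x) (h2 a i) (fn_nonneg _) (by positivity))
        (Nat.cast_nonneg N))
    have a2 : ‖(kp s₂ G₂ i x * pdm i (D a) x * g a x).trace‖ ≤
        N * (n * (2 * N) * Up s₁ s₂ P₁ P₂ D x * W) := by
      refine (trace_mul_le _ _).trans (mul_le_mul_of_nonneg_left
        (mul_le_mul ?_ (h1 a) (fn_nonneg _) (by positivity)) (Nat.cast_nonneg N))
      exact (fn_mul_le _ _).trans (mul_le_mul (kp_le hδ h.d₂.cs h.d₂.cG i x) (pdD_le a i x)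
        (fn_nonneg _) (by positivity))
    refine (norm_sub_le _ _).trans ((add_le_add a1 a2).trans (le_of_eq ?_))
    ring
  unfold Rf
  refine (norm_sum_le _ _).trans ((Finset.sum_le_card_nsmul _ _ (n * (N * (n * (((2 * N + 2) *
    (N * 2)) + 4 * N) + n * (2 * N)) * (Up s₁ s₂ P₁ P₂ D x * W)))
    fun a _ => ?_).trans ?_)
  · refine (norm_sum_le _ _).trans ((Finset.sum_le_card_nsmul _ _ _ fun i _ => key a i).trans ?_)
    simp
  · simp only [Finset.card_univ, Fintype.card_fin, nsmul_eq_mul]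
    refine le_of_eq ?_
    ring

theorem Rf_off (h : RP k δ Ω s₁ s₂ P₁ P₂ G₁ G₂ Y D) (g : Fin n → MC n N) {x : V n}
    (hx : x ∉ bl0 n) : Rf s₁ s₂ P₁ P₂ G₂ Y D g x = 0 := by
  have hx' : x ∉ Ω := fun h' => hx (h.sub h')
  unfold Rf
  simp only [PhG_off h _ _ hx', pdm_zero_off h.reg (h.sD _) (h.oD _) _ hx', zero_mul, mul_zero,
    Matrix.trace_zero, sub_zero, Finset.sum_const_zero]

theorem smC_dP (h : RP k δ Ω s₁ s₂ P₁ P₂ G₁ G₂ Y D) : SmC fun x => P₂ x - P₁ x :=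
  smC_sub h.d₂.sP h.d₁.sP

theorem cont_up (h : RP k δ Ω s₁ s₂ P₁ P₂ G₁ G₂ Y D) : Continuous (up s₁ s₂ P₁ P₂ D) := by
  unfold up
  refine ((continuous_finsetSum _ fun i _ => continuous_finsetSum _ fun j _ =>
    (((h.d₂.ss i j).continuous.sub (h.d₁.ss i j).continuous).pow 2)).add
    (cont_nq (smC_dP h))).add (continuous_finsetSum _ fun a _ => continuous_finsetSum _
      fun i _ => cont_nq (smC_pdm (h.sD a) i))

theorem nq_zero : nq (0 : Matrix (Fin N) (Fin N) ℂ) = 0 := by simp [nq]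

/-- `∫_{bl0} up = hs + n2 + nD`. -/
theorem int_up (h : RP k δ Ω s₁ s₂ P₁ P₂ G₁ G₂ Y D) :
    ∫ x in bl0 n, up s₁ s₂ P₁ P₂ D x = hs s₁ s₂ + n2 (fun x => P₂ x - P₁ x) + nD D := by
  have h0 : ∀ x ∉ bl0 n, up s₁ s₂ P₁ P₂ D x = 0 := fun x hx => by
    have hx' : x ∉ Ω := fun h' => hx (h.sub h')
    unfold up
    simp only [h.os x hx', h.oP x hx', sub_self, pdm_zero_off h.reg (h.sD _) (h.oD _) _ hx',
      nq_zero]
    simp
  rw [setIntegral_eq_integral_of_forall_compl_eq_zero h0]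
  unfold up hs n2 nD
  have i1 : ∀ i j, Integrable fun x => (s₂ x i j - s₁ x i j) ^ 2 := fun i j =>
    integrable_of (((h.d₂.ss i j).continuous.sub (h.d₁.ss i j).continuous).pow 2) fun x hx => by
      rw [h.os x fun h' => hx (h.sub h')]
      simp
  have i2 : Integrable fun x => nq (P₂ x - P₁ x) :=
    integrable_of (cont_nq (smC_dP h)) fun x hx => by
      rw [h.oP x fun h' => hx (h.sub h'), sub_self, nq_zero]
  have i3 : ∀ a i, Integrable fun x => nq (pdm i (D a) x) := fun a i =>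
    integrable_of (cont_nq (smC_pdm (h.sD a) i)) fun x hx => by
      rw [pdm_zero_off h.reg (h.sD a) (h.oD a) i fun h' => hx (h.sub h'), nq_zero]
  have j1 : Integrable fun x => ∑ i, ∑ j, (s₂ x i j - s₁ x i j) ^ 2 :=
    integrable_finsetSum _ fun i _ => integrable_finsetSum _ fun j _ => i1 i j
  have j2 : Integrable fun x => (∑ i, ∑ j, (s₂ x i j - s₁ x i j) ^ 2) + nq (P₂ x - P₁ x) :=
    j1.add i2
  have j3 : Integrable fun x => ∑ a, ∑ i, nq (pdm i (D a) x) :=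
    integrable_finsetSum _ fun a _ => integrable_finsetSum _ fun i _ => i3 a i
  rw [integral_add j2 j3, integral_add j1 i2]
  congr 1
  rw [integral_finsetSum _ fun a _ => integrable_finsetSum _ fun i _ => i3 a i]
  refine Finset.sum_congr rfl fun a _ => ?_
  rw [integral_finsetSum _ fun i _ => i3 a i]
  rfl

/-- **Row QW.** -/
theorem rowQW (hBI : RowBI) : RowQW := by
  intro n N _
  obtain ⟨CB, δB, hCB, hδB, H⟩ := hBI n N 1
  set c₁ : ℝ := (n * (n * (N * (n * (((2 * N + 2) * (N * 2)) + 4 * N) + n * (2 * N))))) with hc₁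
  set c₂ : ℝ := c₁ * (n * (N * 2)) with hc₂
  refine ⟨2, c₂ ^ 2 * (3 * (n * n + 1)) * (2 * (n * (n + 1))) + 1, min (min δB 1) (1 / CB),
    by positivity, lt_min (lt_min hδB one_pos) (by positivity), ?_⟩
  intro Ω s₁ s₂ P₁ P₂ G₁ G₂ Y D h f hf
  set δ := min (min δB 1) (1 / CB) with hδ
  have hδ1 : δ ≤ 1 := (min_le_left _ _).trans (min_le_right _ _)
  have hδB' : δ ≤ δB := (min_le_left _ _).trans (min_le_left _ _)
  have hδC : CB * δ ≤ 1 := by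
    have : δ ≤ 1 / CB := min_le_right _ _
    calc CB * δ ≤ CB * (1 / CB) := mul_le_mul_of_nonneg_left this hCB.le
      _ = 1 := by field_simp
  have hδ0 : 0 ≤ δ := (lt_min (lt_min hδB one_pos) (by positivity)).le
  obtain ⟨Γ, hΓs, hΓ, -, hΓc⟩ := H Y h.sY δ hδ0 hδB' h.cY
  have hΓ1 : ∀ a b x, fn (Γ a b x) ≤ N * 2 := fun a b x => by
    refine Γ_le (k := 1) (C := if a = b then 1 else 0) ?_ hδC (hΓc a b) x
    split_ifs
    · exact Or.inl rfl
    · exact Or.inr rfl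
  have hΓ2 : ∀ a b i x, fn (pdm i (Γ a b) x) ≤ N * 1 := fun a b i x =>
    pdΓ_le (C := if a = b then 1 else 0) (hΓs a b) hδC (hΓc a b) le_rfl i x
  rw [int_Q h hΓs hΓ hf]
  rw [← setIntegral_eq_integral_of_forall_compl_eq_zero (s := bl0 n)
    fun x hx => Rf_off h (gf Γ f) hx]
  have hc : 0 ≤ c₂ ^ 2 * (3 * (n * n + 1)) * (2 * (n * (n + 1)) : ℝ) := by positivity
  have hwc : Continuous (wp f) := by
    unfold wp
    exact continuous_finsetSum _ fun i _ => (cont_nq (hf i)).add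
      (continuous_finsetSum _ fun j _ => cont_nq (smC_pdm (hf i) j))
  have key := int_cs (μ := volume.restrict (bl0 n)) (F := Rf s₁ s₂ P₁ P₂ G₂ Y D (gf Γ f))
    (p := fun x => (c₂ ^ 2 * (3 * (n * n + 1)) * (2 * (n * (n + 1)))) * up s₁ s₂ P₁ P₂ D x)
    (q := wp f)
    ((integrableOn_of (cont_up h)).const_mul _) (integrableOn_of hwc)
    (fun x => mul_nonneg hc (up_nonneg x)) (fun x => wp_nonneg f x) ?_
  · rw [integral_const_mul, int_up h] at key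
    have hw : 0 ≤ ∫ x in bl0 n, wp f x := integral_nonneg fun x => wp_nonneg f x
    have hu : 0 ≤ hs s₁ s₂ + n2 (fun x => P₂ x - P₁ x) + nD D := by
      rw [← int_up h]
      exact integral_nonneg fun x => up_nonneg x
    refine key.trans (mul_le_mul_of_nonneg_right (mul_le_mul_of_nonneg_right ?_ hu) hw)
    linarith
  · intro x
    have hW := Wp_nonneg f x
    have b1 := Rf_le (g := gf Γ f) (W := n * (N * 2) * Wp f x) h hδ1 (by norm_num)
      (fun a => gf_le hΓ1 f a x) (fun a i => pdgf_le hΓs hΓ1 hΓ2 hf a i x)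
    have hU := Up_nonneg (s₁ := s₁) (s₂ := s₂) (P₁ := P₁) (P₂ := P₂) (D := D) x
    have b2 : ‖Rf s₁ s₂ P₁ P₂ G₂ Y D (gf Γ f) x‖ ≤ c₂ * (Up s₁ s₂ P₁ P₂ D x * Wp f x) := by
      refine b1.trans (le_of_eq ?_)
      rw [hc₂]
      ring
    calc ‖Rf s₁ s₂ P₁ P₂ G₂ Y D (gf Γ f) x‖ ^ 2
        ≤ (c₂ * (Up s₁ s₂ P₁ P₂ D x * Wp f x)) ^ 2 := pow_le_pow_left₀ (norm_nonneg _) b2 2
      _ = c₂ ^ 2 * (Up s₁ s₂ P₁ P₂ D x ^ 2 * Wp f x ^ 2) := by ring
      _ ≤ c₂ ^ 2 * ((3 * (n * n + 1) * up s₁ s₂ P₁ P₂ D x) *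
          (2 * (n * (n + 1)) * wp f x)) :=
          mul_le_mul_of_nonneg_left (mul_le_mul (Up_sq x) (Wp_sq f x) (sq_nonneg _)
            (mul_nonneg (by positivity) (up_nonneg x))) (sq_nonneg _)
      _ = _ := by ring

end Vale.Agent.P088.R2.H644
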